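/-
helper10: area kit (A1) for the row-211 team build (S0324–S0329).
`μHE[2]` of a triangle in `EuclideanSpace ℝ (Fin 3)` via a plane isometry and
`addHaar_image_linearMap`.  Shared core: `muHE_image_plane`.
-/
import Mathlib

set_option autoImplicit false

open MeasureTheory Measure

namespace Crest.Agent.Helper10

/-- The Euclidean plane. -/
abbrev E2 : Type := EuclideanSpace ℝ (Fin 2)
/-- Euclidean 3-space. -/
abbrev E3 : Type := EuclideanSpace ℝ (Fin 3)

/-- Any two vectors of 3-space lie in the range of a linear isometry from the plane. -/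
theorem exists_isometry_plane (a b : E3) :
    ∃ (ι : E2 →ₗᵢ[ℝ] E3) (α β : E2), ι α = a ∧ ι β = b := by
  obtain ⟨n, hn0, hna, hnb⟩ : ∃ n : E3, n ≠ 0 ∧ inner ℝ n a = 0 ∧ inner ℝ n b = 0 := by
    let f : E3 →ₗ[ℝ] ℝ × ℝ := (innerₛₗ ℝ a).prod (innerₛₗ ℝ b)
    have h : Module.finrank ℝ (ℝ × ℝ) < Module.finrank ℝ E3 := by simp
    have hker : LinearMap.ker f ≠ ⊥ := LinearMap.ker_ne_bot_of_finrank_lt h
    obtain ⟨x, hx, hx0⟩ := (Submodule.ne_bot_iff _).1 hker
    refine ⟨x, hx0, ?_, ?_⟩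
    · have := congrArg Prod.fst (LinearMap.mem_ker.1 hx)
      simpa [f, real_inner_comm] using this
    · have := congrArg Prod.snd (LinearMap.mem_ker.1 hx)
      simpa [f, real_inner_comm] using this
  have : Fact (Module.finrank ℝ E3 = 1 + 1 + 1) := ⟨by simp⟩
  have hW : Module.finrank ℝ (ℝ ∙ n)ᗮ = 2 := Submodule.finrank_orthogonal_span_singleton hn0
  let B : OrthonormalBasis (Fin 2) ℝ (ℝ ∙ n)ᗮ :=
    (stdOrthonormalBasis ℝ (ℝ ∙ n)ᗮ).reindex (finCongr hW)
  have ha : a ∈ (ℝ ∙ n)ᗮ := Submodule.mem_orthogonal_singleton_iff_inner_right.2 hna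
  have hb : b ∈ (ℝ ∙ n)ᗮ := Submodule.mem_orthogonal_singleton_iff_inner_right.2 hnb
  refine ⟨(ℝ ∙ n)ᗮ.subtypeₗᵢ.comp B.repr.symm.toLinearIsometry, B.repr ⟨a, ha⟩, B.repr ⟨b, hb⟩,
    ?_, ?_⟩ <;> simp

/-- The linear map `z ↦ z 0 • α + z 1 • β` of the plane. -/
noncomputable def planeMap (α β : E2) : E2 →ₗ[ℝ] E2 :=
  (EuclideanSpace.proj (0 : Fin 2) : E2 →L[ℝ] ℝ).toLinearMap.smulRight α +
    (EuclideanSpace.proj (1 : Fin 2) : E2 →L[ℝ] ℝ).toLinearMap.smulRight β

theorem planeMap_apply (α β z : E2) : planeMap α β z = z 0 • α + z 1 • β := by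
  simp [planeMap]

theorem det_planeMap (α β : E2) : LinearMap.det (planeMap α β) = α 0 * β 1 - α 1 * β 0 := by
  rw [← LinearMap.det_toMatrix (EuclideanSpace.basisFun (Fin 2) ℝ).toBasis, Matrix.det_fin_two]
  simp [LinearMap.toMatrix_apply, planeMap_apply]
  ring

theorem gram_eq_det_sq (α β : E2) :
    ‖α‖ ^ 2 * ‖β‖ ^ 2 - inner ℝ α β ^ 2 = (α 0 * β 1 - α 1 * β 0) ^ 2 := by
  simp [EuclideanSpace.real_norm_sq_eq, PiLp.inner_apply, Fin.sum_univ_two]
  ring

/-- **Shared core of the area kit.** The `μHE[2]`-measure of the image of a planar set `S` under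
the affine map `z ↦ c + z 0 • a + z 1 • b` into 3-space is `√Gram(a, b) * volume S`
(all `a b`, degenerate ones included). -/
theorem muHE_image_plane (c a b : E3) (S : Set E2) :
    μHE[2] ((fun z : E2 => c + z 0 • a + z 1 • b) '' S) =
      ENNReal.ofReal (Real.sqrt (‖a‖ ^ 2 * ‖b‖ ^ 2 - inner ℝ a b ^ 2)) * volume S := by
  obtain ⟨ι, α, β, rfl, rfl⟩ := exists_isometry_plane a b
  have himg : (fun z : E2 => c + z 0 • ι α + z 1 • ι β) '' S =
      (fun x : E3 => c +ᵥ x) '' (ι '' (planeMap α β '' S)) := by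
    rw [Set.image_image, Set.image_image]
    refine Set.image_congr' fun z => ?_
    simp [planeMap_apply, add_assoc]
  rw [himg, (isometry_vadd E3 c).euclideanHausdorffMeasure_image,
    ι.isometry.euclideanHausdorffMeasure_image,
    EuclideanSpace.euclideanHausdorffMeasure_eq_volume, addHaar_image_linearMap, det_planeMap]
  congr 2
  rw [ι.norm_map, ι.norm_map, ι.inner_map_map, gram_eq_det_sq, Real.sqrt_sq_eq_abs]

/-! ### The standard triangle -/

theorem volume_prod_triangle :
    volume {p : ℝ × ℝ | 0 ≤ p.1 ∧ 0 ≤ p.2 ∧ p.1 + p.2 ≤ 1} = ENNReal.ofReal (1 / 2) := by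
  have hmeas : MeasurableSet {p : ℝ × ℝ | 0 ≤ p.1 ∧ 0 ≤ p.2 ∧ p.1 + p.2 ≤ 1} := by
    apply IsClosed.measurableSet
    exact (isClosed_le continuous_const continuous_fst).inter
      ((isClosed_le continuous_const continuous_snd).inter
        (isClosed_le (continuous_fst.add continuous_snd) continuous_const))
  rw [Measure.volume_eq_prod, Measure.prod_apply hmeas]
  have hslice : ∀ x : ℝ,
      volume (Prod.mk x ⁻¹' {p : ℝ × ℝ | 0 ≤ p.1 ∧ 0 ≤ p.2 ∧ p.1 + p.2 ≤ 1}) =
        (Set.Icc (0 : ℝ) 1).indicator (fun x => ENNReal.ofReal (1 - x)) x := by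
    intro x
    by_cases hx : x ∈ Set.Icc (0 : ℝ) 1
    · rw [Set.indicator_of_mem hx]
      have : Prod.mk x ⁻¹' {p : ℝ × ℝ | 0 ≤ p.1 ∧ 0 ≤ p.2 ∧ p.1 + p.2 ≤ 1} =
          Set.Icc 0 (1 - x) := by
        ext y
        simp only [Set.mem_preimage, Set.mem_ofPred_eq, Set.mem_Icc]
        constructor
        · rintro ⟨_, h2, h3⟩
          exact ⟨h2, by linarith⟩
        · rintro ⟨h2, h3⟩
          exact ⟨hx.1, h2, by linarith⟩
      rw [this, Real.volume_Icc, sub_zero]
    · rw [Set.indicator_of_notMem hx]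
      have : Prod.mk x ⁻¹' {p : ℝ × ℝ | 0 ≤ p.1 ∧ 0 ≤ p.2 ∧ p.1 + p.2 ≤ 1} = ∅ := by
        ext y
        simp only [Set.mem_preimage, Set.mem_ofPred_eq, Set.mem_empty_iff_false, iff_false]
        rintro ⟨h1, h2, h3⟩
        exact hx ⟨h1, by linarith⟩
      rw [this, measure_empty]
  simp_rw [hslice]
  rw [lintegral_indicator measurableSet_Icc, ← ofReal_integral_eq_lintegral_ofReal]
  · congr 1
    rw [integral_Icc_eq_integral_Ioc, ← intervalIntegral.integral_of_le zero_le_one,
      intervalIntegral.integral_sub intervalIntegrable_const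
        intervalIntegral.intervalIntegrable_id]
    simp
    norm_num
  · exact (continuous_const.sub continuous_id).integrableOn_Icc
  · exact (ae_restrict_iff' measurableSet_Icc).2
      (Filter.Eventually.of_forall fun x hx => by simpa using hx.2)

/-- The standard triangle of the plane. -/
def stdTriangle : Set E2 := {z | 0 ≤ z 0 ∧ 0 ≤ z 1 ∧ z 0 + z 1 ≤ 1}

theorem volume_stdTriangle : volume stdTriangle = ENNReal.ofReal (1 / 2) := by
  have hcl : IsClosed stdTriangle := by
    have h0 : Continuous fun z : E2 => z 0 := by fun_prop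
    have h1 : Continuous fun z : E2 => z 1 := by fun_prop
    exact (isClosed_le continuous_const h0).inter
      ((isClosed_le continuous_const h1).inter (isClosed_le (h0.add h1) continuous_const))
  rw [← (PiLp.volume_preserving_toLp (Fin 2)).measure_preimage hcl.measurableSet.nullMeasurableSet]
  have h2 : (WithLp.toLp 2 : (Fin 2 → ℝ) → E2) ⁻¹' stdTriangle =
      MeasurableEquiv.finTwoArrow ⁻¹' {p : ℝ × ℝ | 0 ≤ p.1 ∧ 0 ≤ p.2 ∧ p.1 + p.2 ≤ 1} := by
    ext x
    simp [stdTriangle, MeasurableEquiv.finTwoArrow]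
  have hmeas : MeasurableSet {p : ℝ × ℝ | 0 ≤ p.1 ∧ 0 ≤ p.2 ∧ p.1 + p.2 ≤ 1} := by
    apply IsClosed.measurableSet
    exact (isClosed_le continuous_const continuous_fst).inter
      ((isClosed_le continuous_const continuous_snd).inter
        (isClosed_le (continuous_fst.add continuous_snd) continuous_const))
  rw [h2, (volume_preserving_finTwoArrow ℝ).measure_preimage hmeas.nullMeasurableSet,
    volume_prod_triangle]

theorem convexHull_triple_eq_image (p q r : E3) :
    convexHull ℝ {p, q, r} =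
      (fun z : E2 => p + z 0 • (q - p) + z 1 • (r - p)) '' stdTriangle := by
  rw [convexHull_insert (Set.insert_nonempty q {r}), convexHull_pair]
  ext x
  simp only [mem_convexJoin, Set.mem_singleton_iff, exists_eq_left, Set.mem_image, stdTriangle,
    Set.mem_ofPred_eq]
  constructor
  · rintro ⟨y, ⟨a, b, ha, hb, hab, rfl⟩, a', b', ha', hb', hab', rfl⟩
    refine ⟨!₂[b' * a, b' * b], ⟨?_, ?_, ?_⟩, ?_⟩
    · simpa using mul_nonneg hb' ha
    · simpa using mul_nonneg hb' hb
    · have h : b' * a + b' * b = b' := by rw [← mul_add, hab, mul_one]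
      simp only [Matrix.cons_val_zero, Matrix.cons_val_one]
      linarith
    · obtain rfl : a = 1 - b := by linarith
      obtain rfl : a' = 1 - b' := by linarith
      simp only [Matrix.cons_val_zero, Matrix.cons_val_one]
      module
  · rintro ⟨z, ⟨h0, h1, h01⟩, rfl⟩
    by_cases hφ : z 0 + z 1 = 0
    · have hz0 : z 0 = 0 := by linarith
      have hz1 : z 1 = 0 := by linarith
      refine ⟨q, left_mem_segment ℝ q r, ?_⟩
      rw [hz0, hz1]
      simpa using left_mem_segment ℝ p q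
    · have hφpos : 0 < z 0 + z 1 := lt_of_le_of_ne (by linarith) (Ne.symm hφ)
      refine ⟨(z 0 / (z 0 + z 1)) • q + (z 1 / (z 0 + z 1)) • r,
        ⟨z 0 / (z 0 + z 1), z 1 / (z 0 + z 1), div_nonneg h0 hφpos.le, div_nonneg h1 hφpos.le,
          by field_simp, rfl⟩,
        1 - (z 0 + z 1), z 0 + z 1, by linarith, by linarith, by ring, ?_⟩
      have e0 : (z 0 + z 1) * (z 0 / (z 0 + z 1)) = z 0 := by field_simp
      have e1 : (z 0 + z 1) * (z 1 / (z 0 + z 1)) = z 1 := by field_simp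
      rw [smul_add, smul_smul, smul_smul, e0, e1]
      module

/-- **(A1)** The `μHE[2]`-area of a (possibly degenerate) triangle in Euclidean 3-space. -/
theorem area_triangle (p q r : E3) :
    μHE[2] (convexHull ℝ {p, q, r}) =
      ENNReal.ofReal (Real.sqrt (‖q - p‖ ^ 2 * ‖r - p‖ ^ 2 - inner ℝ (q - p) (r - p) ^ 2) / 2) := by
  rw [convexHull_triple_eq_image, muHE_image_plane, volume_stdTriangle,
    ← ENNReal.ofReal_mul (Real.sqrt_nonneg _)]
  congr 1
  ring

end Crest.Agent.Helper10
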