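/-
helper10: area kit (A2, A3) for the row-211 team build (S0324–S0329), on top of
`Crest.Agent.Helper10.Area`: `μHE[2]` of closed / open parallelograms in
`EuclideanSpace ℝ (Fin 3)`, and the fact that an open nondegenerate parallelogram in the plane
`u^⊥` is bounded and relatively open in that plane.
-/
import Crest.Agent.Helper10.Area

set_option autoImplicit false

open MeasureTheory Measure

namespace Crest.Agent.Helper10

/-- The closed unit square of the plane. -/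
def stdSquare : Set E2 := {z | z 0 ∈ Set.Icc (0 : ℝ) 1 ∧ z 1 ∈ Set.Icc (0 : ℝ) 1}

/-- The open unit square of the plane. -/
def stdSquareOpen : Set E2 := {z | z 0 ∈ Set.Ioo (0 : ℝ) 1 ∧ z 1 ∈ Set.Ioo (0 : ℝ) 1}

theorem volume_stdSquare : volume stdSquare = 1 := by
  have hcl : IsClosed stdSquare := by
    have h0 : Continuous fun z : E2 => z 0 := by fun_prop
    have h1 : Continuous fun z : E2 => z 1 := by fun_prop
    exact (isClosed_Icc.preimage h0).inter (isClosed_Icc.preimage h1)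
  rw [← (PiLp.volume_preserving_toLp (Fin 2)).measure_preimage hcl.measurableSet.nullMeasurableSet]
  have h2 : (WithLp.toLp 2 : (Fin 2 → ℝ) → E2) ⁻¹' stdSquare =
      Set.pi Set.univ (fun _ : Fin 2 => Set.Icc (0 : ℝ) 1) := by
    ext x
    simp only [stdSquare, Set.mem_preimage, Set.mem_ofPred_eq, Set.mem_pi, Set.mem_univ,
      true_implies, Fin.forall_fin_two]
  rw [h2, volume_pi_pi]
  simp

theorem volume_stdSquareOpen : volume stdSquareOpen = 1 := by
  have hop : IsOpen stdSquareOpen := by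
    have h0 : Continuous fun z : E2 => z 0 := by fun_prop
    have h1 : Continuous fun z : E2 => z 1 := by fun_prop
    exact (isOpen_Ioo.preimage h0).inter (isOpen_Ioo.preimage h1)
  rw [← (PiLp.volume_preserving_toLp (Fin 2)).measure_preimage hop.measurableSet.nullMeasurableSet]
  have h2 : (WithLp.toLp 2 : (Fin 2 → ℝ) → E2) ⁻¹' stdSquareOpen =
      Set.pi Set.univ (fun _ : Fin 2 => Set.Ioo (0 : ℝ) 1) := by
    ext x
    simp [stdSquareOpen, Fin.forall_fin_two]
  rw [h2, volume_pi_pi]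
  simp

theorem parallelogram_eq_image (c a b : E3) :
    {x : E3 | ∃ s ∈ Set.Icc (0 : ℝ) 1, ∃ t ∈ Set.Icc (0 : ℝ) 1, x = c + s • a + t • b} =
      (fun z : E2 => c + z 0 • a + z 1 • b) '' stdSquare := by
  ext x
  constructor
  · rintro ⟨s, hs, t, ht, rfl⟩
    exact ⟨!₂[s, t], ⟨by simpa using hs, by simpa using ht⟩, by simp⟩
  · rintro ⟨z, ⟨h0, h1⟩, rfl⟩
    exact ⟨z 0, h0, z 1, h1, rfl⟩

theorem parallelogramOpen_eq_image (c a b : E3) :
    {x : E3 | ∃ s ∈ Set.Ioo (0 : ℝ) 1, ∃ t ∈ Set.Ioo (0 : ℝ) 1, x = c + s • a + t • b} =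
      (fun z : E2 => c + z 0 • a + z 1 • b) '' stdSquareOpen := by
  ext x
  constructor
  · rintro ⟨s, hs, t, ht, rfl⟩
    exact ⟨!₂[s, t], ⟨by simpa using hs, by simpa using ht⟩, by simp⟩
  · rintro ⟨z, ⟨h0, h1⟩, rfl⟩
    exact ⟨z 0, h0, z 1, h1, rfl⟩

/-- **(A2)** The `μHE[2]`-area of a closed (possibly degenerate) parallelogram in 3-space. -/
theorem area_parallelogram (c a b : E3) :
    μHE[2] {x : E3 | ∃ s ∈ Set.Icc (0 : ℝ) 1, ∃ t ∈ Set.Icc (0 : ℝ) 1, x = c + s • a + t • b} =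
      ENNReal.ofReal (Real.sqrt (‖a‖ ^ 2 * ‖b‖ ^ 2 - inner ℝ a b ^ 2)) := by
  rw [parallelogram_eq_image, muHE_image_plane, volume_stdSquare, mul_one]

/-- The `μHE[2]`-area of an open (possibly degenerate) parallelogram in 3-space. -/
theorem area_parallelogram_open (c a b : E3) :
    μHE[2] {x : E3 | ∃ s ∈ Set.Ioo (0 : ℝ) 1, ∃ t ∈ Set.Ioo (0 : ℝ) 1, x = c + s • a + t • b} =
      ENNReal.ofReal (Real.sqrt (‖a‖ ^ 2 * ‖b‖ ^ 2 - inner ℝ a b ^ 2)) := by
  rw [parallelogramOpen_eq_image, muHE_image_plane, volume_stdSquareOpen, mul_one]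

/-- Upper-bound form for open parallelograms. -/
theorem muHE_parallelogram_le (c A B : E3) :
    μHE[2] {x : E3 | ∃ s ∈ Set.Ioo (0 : ℝ) 1, ∃ t ∈ Set.Ioo (0 : ℝ) 1, x = c + s • A + t • B} ≤
      ENNReal.ofReal (Real.sqrt (‖A‖ ^ 2 * ‖B‖ ^ 2 - inner ℝ A B ^ 2)) :=
  (area_parallelogram_open c A B).le

/-- If `a, b ⊥ u`, `‖u‖ = 1` and `a, b` are linearly independent (positive Gram determinant), then
a vector orthogonal to `a`, `b` and `u` vanishes. -/
theorem eq_zero_of_inner_eq_zero (a b u w : E3) (hu : ‖u‖ = 1)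
    (ha : inner ℝ a u = 0) (hb : inner ℝ b u = 0)
    (hab : 0 < ‖a‖ ^ 2 * ‖b‖ ^ 2 - inner ℝ a b ^ 2)
    (hwa : inner ℝ w a = 0) (hwb : inner ℝ w b = 0) (hwu : inner ℝ w u = 0) : w = 0 := by
  have hu2 : ‖u‖ ^ 2 = 1 := by rw [hu]; norm_num
  have hu2' : u 0 ^ 2 + u 1 ^ 2 + u 2 ^ 2 = 1 := by
    have := hu2
    simp only [EuclideanSpace.real_norm_sq_eq, Fin.sum_univ_three] at this
    linear_combination this
  have ha' : a 0 * u 0 + a 1 * u 1 + a 2 * u 2 = 0 := by
    have := ha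
    simp [PiLp.inner_apply, Fin.sum_univ_three] at this
    linear_combination this
  have hb' : b 0 * u 0 + b 1 * u 1 + b 2 * u 2 = 0 := by
    have := hb
    simp [PiLp.inner_apply, Fin.sum_univ_three] at this
    linear_combination this
  have hwa' : w 0 * a 0 + w 1 * a 1 + w 2 * a 2 = 0 := by
    have := hwa
    simp [PiLp.inner_apply, Fin.sum_univ_three] at this
    linear_combination this
  have hwb' : w 0 * b 0 + w 1 * b 1 + w 2 * b 2 = 0 := by
    have := hwb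
    simp [PiLp.inner_apply, Fin.sum_univ_three] at this
    linear_combination this
  have hwu' : w 0 * u 0 + w 1 * u 1 + w 2 * u 2 = 0 := by
    have := hwu
    simp [PiLp.inner_apply, Fin.sum_univ_three] at this
    linear_combination this
  have hG : ‖a‖ ^ 2 * ‖b‖ ^ 2 - inner ℝ a b ^ 2 =
      (a 0 ^ 2 + a 1 ^ 2 + a 2 ^ 2) * (b 0 ^ 2 + b 1 ^ 2 + b 2 ^ 2) -
        (a 0 * b 0 + a 1 * b 1 + a 2 * b 2) ^ 2 := by
    simp [EuclideanSpace.real_norm_sq_eq, PiLp.inner_apply, Fin.sum_univ_three]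
    ring
  rw [hG] at hab
  set D : ℝ := a 0 * (b 1 * u 2 - b 2 * u 1) - a 1 * (b 0 * u 2 - b 2 * u 0) +
    a 2 * (b 0 * u 1 - b 1 * u 0) with hD
  have hD2 : D ^ 2 = (a 0 ^ 2 + a 1 ^ 2 + a 2 ^ 2) * (b 0 ^ 2 + b 1 ^ 2 + b 2 ^ 2) -
        (a 0 * b 0 + a 1 * b 1 + a 2 * b 2) ^ 2 := by
    rw [hD]
    linear_combination ((a 0 ^ 2 + a 1 ^ 2 + a 2 ^ 2) * (b 0 ^ 2 + b 1 ^ 2 + b 2 ^ 2) -
        (a 0 * b 0 + a 1 * b 1 + a 2 * b 2) ^ 2) * hu2' +
      (2 * (a 0 * b 0 + a 1 * b 1 + a 2 * b 2) * (b 0 * u 0 + b 1 * u 1 + b 2 * u 2) -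
        (b 0 ^ 2 + b 1 ^ 2 + b 2 ^ 2) * (a 0 * u 0 + a 1 * u 1 + a 2 * u 2)) * ha' -
      (a 0 ^ 2 + a 1 ^ 2 + a 2 ^ 2) * (b 0 * u 0 + b 1 * u 1 + b 2 * u 2) * hb'
  have hD0 : D ≠ 0 := by
    intro h
    rw [h] at hD2
    nlinarith
  have h0 : w 0 = 0 := by
    apply mul_left_cancel₀ hD0
    rw [hD]
    linear_combination (b 1 * u 2 - b 2 * u 1) * hwa' - (a 1 * u 2 - a 2 * u 1) * hwb' +
      (a 1 * b 2 - a 2 * b 1) * hwu'
  have h1 : w 1 = 0 := by
    apply mul_left_cancel₀ hD0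
    rw [hD]
    linear_combination -(b 0 * u 2 - b 2 * u 0) * hwa' + (a 0 * u 2 - a 2 * u 0) * hwb' -
      (a 0 * b 2 - a 2 * b 0) * hwu'
  have h2 : w 2 = 0 := by
    apply mul_left_cancel₀ hD0
    rw [hD]
    linear_combination (b 0 * u 1 - b 1 * u 0) * hwa' - (a 0 * u 1 - a 1 * u 0) * hwb' +
      (a 0 * b 1 - a 1 * b 0) * hwu'
  ext i
  fin_cases i
  · simpa using h0
  · simpa using h1
  · simpa using h2

/-- **(A3)** An open nondegenerate parallelogram in the plane `u^⊥` is bounded and is the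
intersection of an open set with that plane. -/
theorem open_parallelogram (u c a b : E3) (hu : ‖u‖ = 1) (hc : inner ℝ c u = 0)
    (ha : inner ℝ a u = 0) (hb : inner ℝ b u = 0)
    (hab : 0 < ‖a‖ ^ 2 * ‖b‖ ^ 2 - inner ℝ a b ^ 2) :
    Bornology.IsBounded
        {x : E3 | ∃ s ∈ Set.Ioo (0 : ℝ) 1, ∃ t ∈ Set.Ioo (0 : ℝ) 1, x = c + s • a + t • b} ∧
      ∃ O : Set E3, IsOpen O ∧
        {x : E3 | ∃ s ∈ Set.Ioo (0 : ℝ) 1, ∃ t ∈ Set.Ioo (0 : ℝ) 1, x = c + s • a + t • b} =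
          O ∩ {x | inner ℝ x u = 0} := by
  obtain ⟨G, hGdef⟩ : ∃ G : ℝ, G = ‖a‖ ^ 2 * ‖b‖ ^ 2 - inner ℝ a b ^ 2 := ⟨_, rfl⟩
  have hG : G ≠ 0 := by rw [hGdef]; exact hab.ne'
  refine ⟨?_, ?_⟩
  · refine isBounded_iff_forall_norm_le.2 ⟨‖c‖ + ‖a‖ + ‖b‖, ?_⟩
    rintro x ⟨s, hs, t, ht, rfl⟩
    calc ‖c + s • a + t • b‖ ≤ ‖c‖ + ‖s • a‖ + ‖t • b‖ := norm_add₃_le
      _ ≤ ‖c‖ + ‖a‖ + ‖b‖ := by
        rw [norm_smul, norm_smul, Real.norm_of_nonneg hs.1.le, Real.norm_of_nonneg ht.1.le]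
        nlinarith [norm_nonneg a, norm_nonneg b, hs.2, ht.2]
  · let σ : E3 → ℝ := fun x =>
      (inner ℝ (x - c) a * ‖b‖ ^ 2 - inner ℝ (x - c) b * inner ℝ a b) / G
    let τ : E3 → ℝ := fun x =>
      (inner ℝ (x - c) b * ‖a‖ ^ 2 - inner ℝ (x - c) a * inner ℝ a b) / G
    have hσ : Continuous σ := by fun_prop
    have hτ : Continuous τ := by fun_prop
    have hval : ∀ s t : ℝ, σ (c + s • a + t • b) = s ∧ τ (c + s • a + t • b) = t := by
      intro s t
      have e : c + s • a + t • b - c = s • a + t • b := by abel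
      have e1 : inner ℝ (s • a + t • b) a = s * ‖a‖ ^ 2 + t * inner ℝ a b := by
        rw [inner_add_left, inner_smul_left, inner_smul_left, real_inner_self_eq_norm_sq,
          real_inner_comm a b]
        simp
      have e2 : inner ℝ (s • a + t • b) b = s * inner ℝ a b + t * ‖b‖ ^ 2 := by
        rw [inner_add_left, inner_smul_left, inner_smul_left, real_inner_self_eq_norm_sq]
        simp
      constructor
      · simp only [σ, e, e1, e2]
        rw [div_eq_iff hG, hGdef]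
        ring
      · simp only [τ, e, e1, e2]
        rw [div_eq_iff hG, hGdef]
        ring
    refine ⟨{x | σ x ∈ Set.Ioo (0 : ℝ) 1 ∧ τ x ∈ Set.Ioo (0 : ℝ) 1},
      (isOpen_Ioo.preimage hσ).inter (isOpen_Ioo.preimage hτ), ?_⟩
    ext x
    constructor
    · rintro ⟨s, hs, t, ht, rfl⟩
      refine ⟨⟨?_, ?_⟩, ?_⟩
      · rw [(hval s t).1]; exact hs
      · rw [(hval s t).2]; exact ht
      · simp [inner_add_left, inner_smul_left, hc, ha, hb]
    · rintro ⟨⟨hs, ht⟩, hxu⟩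
      have hxu' : inner ℝ x u = 0 := hxu
      refine ⟨σ x, hs, τ x, ht, ?_⟩
      have hσG : σ x * G = inner ℝ (x - c) a * ‖b‖ ^ 2 - inner ℝ (x - c) b * inner ℝ a b :=
        div_mul_cancel₀ _ hG
      have hτG : τ x * G = inner ℝ (x - c) b * ‖a‖ ^ 2 - inner ℝ (x - c) a * inner ℝ a b :=
        div_mul_cancel₀ _ hG
      have hw : x - (c + σ x • a + τ x • b) = 0 := by
        have ew : x - (c + σ x • a + τ x • b) = (x - c) - σ x • a - τ x • b := by abel
        apply eq_zero_of_inner_eq_zero a b u _ hu ha hb hab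
        · rw [ew, inner_sub_left, inner_sub_left, inner_smul_left, inner_smul_left,
            real_inner_self_eq_norm_sq, real_inner_comm a b]
          simp only [RCLike.conj_to_real]
          apply mul_right_cancel₀ hG
          rw [zero_mul]
          have : (inner ℝ (x - c) a - σ x * ‖a‖ ^ 2 - τ x * inner ℝ a b) * G =
              inner ℝ (x - c) a * G - (σ x * G) * ‖a‖ ^ 2 - (τ x * G) * inner ℝ a b := by ring
          rw [this, hσG, hτG, hGdef]
          ring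
        · rw [ew, inner_sub_left, inner_sub_left, inner_smul_left, inner_smul_left,
            real_inner_self_eq_norm_sq]
          simp only [RCLike.conj_to_real]
          apply mul_right_cancel₀ hG
          rw [zero_mul]
          have : (inner ℝ (x - c) b - σ x * inner ℝ a b - τ x * ‖b‖ ^ 2) * G =
              inner ℝ (x - c) b * G - (σ x * G) * inner ℝ a b - (τ x * G) * ‖b‖ ^ 2 := by ring
          rw [this, hσG, hτG, hGdef]
          ring
        · simp [inner_sub_left, inner_add_left, inner_smul_left, hxu', hc, ha, hb]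
      exact sub_eq_zero.1 hw

end Crest.Agent.Helper10
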